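import Mathlib

/-!
# P235: comparison of a coupling with the Markov chain with the same pair laws (helper279)

Statement (M) of helper11's proof: a chain of pair laws `p i` on finite sets `α i` with at most `N`
elements, `φ i` the backward harmonic function of a `0/1` valued function `φ 0`.
-/

set_option autoImplicit false

open Finset

noncomputable section

namespace Vale.Agent.P235.H279

variable {α : ℕ → Type*} [∀ i, Fintype (α i)]

/-- a chain of pair laws of length `n` with a backward harmonic function -/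
structure Chn (n : ℕ) (p : ∀ i, α i → α (i + 1) → ℝ) (m φ : ∀ i, α i → ℝ) : Prop where
  nonneg : ∀ i, i < n → ∀ x y, 0 ≤ p i x y
  row : ∀ i, i < n → ∀ x, ∑ y, p i x y = m i x
  col : ∀ i, i < n → ∀ y, ∑ x, p i x y = m (i + 1) y
  m0 : ∀ i, i ≤ n → ∀ x, 0 ≤ m i x
  harm : ∀ i, i < n → ∀ y, m (i + 1) y * φ (i + 1) y = ∑ x, p i x y * φ i x

/-- second moment -/
def Vq (m φ : ∀ i, α i → ℝ) (i : ℕ) : ℝ := ∑ x, m i x * φ i x ^ 2

open Classical in
/-- probability of an event of a consecutive pair -/
def Pq (p : ∀ i, α i → α (i + 1) → ℝ) (i : ℕ) (Q : α i → α (i + 1) → Prop) : ℝ :=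
  ∑ x, ∑ y, if Q x y then p i x y else 0

variable {n : ℕ} {p : ∀ i, α i → α (i + 1) → ℝ} {m φ : ∀ i, α i → ℝ}

lemma Pq_nonneg (h : Chn n p m φ) {i : ℕ} (hi : i < n) (Q : α i → α (i + 1) → Prop) :
    0 ≤ Pq p i Q := by
  unfold Pq
  refine sum_nonneg fun x _ => sum_nonneg fun y _ => ?_
  split_ifs
  · exact h.nonneg i hi x y
  · exact le_rfl

lemma Pq_or (h : Chn n p m φ) {i : ℕ} (hi : i < n) {Q Q₁ Q₂ : α i → α (i + 1) → Prop}
    (hQ : ∀ x y, Q x y → Q₁ x y ∨ Q₂ x y) : Pq p i Q ≤ Pq p i Q₁ + Pq p i Q₂ := by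
  unfold Pq
  rw [← sum_add_distrib]
  refine sum_le_sum fun x _ => ?_
  rw [← sum_add_distrib]
  refine sum_le_sum fun y _ => ?_
  have h0 := h.nonneg i hi x y
  by_cases h1 : Q x y
  · rcases hQ x y h1 with h2 | h2
    · rw [if_pos h1, if_pos h2]
      split_ifs <;> linarith
    · rw [if_pos h1, if_pos h2]
      split_ifs <;> linarith
  · rw [if_neg h1]
    split_ifs <;> linarith

/-- mean values are preserved -/
lemma mean_eq (h : Chn n p m φ) {i : ℕ} (hi : i < n) :
    ∑ y, m (i + 1) y * φ (i + 1) y = ∑ x, m i x * φ i x := by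
  rw [sum_congr rfl fun y _ => h.harm i hi y, sum_comm]
  refine sum_congr rfl fun x _ => ?_
  rw [← sum_mul, h.row i hi x]

lemma mean_eq0 (h : Chn n p m φ) {i : ℕ} (hi : i ≤ n) :
    ∑ y, m i y * φ i y = ∑ x, m 0 x * φ 0 x := by
  induction i with
  | zero => rfl
  | succ i ih => rw [mean_eq h (by omega), ih (by omega)]

/-- the energy identity -/
lemma energy_step (h : Chn n p m φ) {i : ℕ} (hi : i < n) :
    ∑ x, ∑ y, p i x y * (φ i x - φ (i + 1) y) ^ 2 = Vq m φ i - Vq m φ (i + 1) := by
  have e : ∀ x y, p i x y * (φ i x - φ (i + 1) y) ^ 2 =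
      p i x y * φ i x ^ 2 - 2 * (φ (i + 1) y * (p i x y * φ i x)) + p i x y * φ (i + 1) y ^ 2 := by
    intro x y; ring
  simp only [e, sum_add_distrib, sum_sub_distrib]
  have e1 : ∑ x, ∑ y, p i x y * φ i x ^ 2 = Vq m φ i := by
    unfold Vq
    refine sum_congr rfl fun x _ => ?_
    rw [← sum_mul, h.row i hi x]
  have e2 : ∑ x, ∑ y, p i x y * φ (i + 1) y ^ 2 = Vq m φ (i + 1) := by
    unfold Vq
    rw [sum_comm]
    refine sum_congr rfl fun y _ => ?_
    rw [← sum_mul, h.col i hi y]
  have e3 : ∑ x, ∑ y, 2 * (φ (i + 1) y * (p i x y * φ i x)) = 2 * Vq m φ (i + 1) := by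
    unfold Vq
    rw [sum_comm, mul_sum]
    refine sum_congr rfl fun y _ => ?_
    rw [← mul_sum, ← mul_sum, ← h.harm i hi y]
    ring
  rw [e1, e2, e3]
  ring

lemma V_step (h : Chn n p m φ) {i : ℕ} (hi : i < n) : Vq m φ (i + 1) ≤ Vq m φ i := by
  have h1 := energy_step h hi
  have h2 : 0 ≤ ∑ x, ∑ y, p i x y * (φ i x - φ (i + 1) y) ^ 2 :=
    sum_nonneg fun x _ => sum_nonneg fun y _ => mul_nonneg (h.nonneg i hi x y) (sq_nonneg _)
  linarith

lemma V_anti (h : Chn n p m φ) {s t : ℕ} (hst : s ≤ t) (ht : t ≤ n) : Vq m φ t ≤ Vq m φ s := by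
  induction t, hst using Nat.le_induction with
  | base => exact le_rfl
  | succ t hst ih => exact (V_step h (by omega)).trans (ih (by omega))

/-- Chebyshev for one step -/
lemma jump_le (h : Chn n p m φ) {i : ℕ} (hi : i < n) {d : ℝ} (hd : 0 < d) :
    Pq p i (fun x y => d ≤ |φ i x - φ (i + 1) y|) ≤ (Vq m φ i - Vq m φ (i + 1)) / d ^ 2 := by
  rw [le_div_iff₀ (by positivity), ← energy_step h hi]
  unfold Pq
  rw [sum_mul]
  refine sum_le_sum fun x _ => ?_
  rw [sum_mul]
  refine sum_le_sum fun y _ => ?_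
  have h0 := h.nonneg i hi x y
  split_ifs with h1
  · refine mul_le_mul_of_nonneg_left ?_ h0
    rw [← sq_abs (φ i x - φ (i + 1) y)]
    exact pow_le_pow_left₀ hd.le h1 2
  · rw [zero_mul]
    positivity

/-- the convex function which is linear on `(b, c)` and `h ^ 2` elsewhere -/
def Psi (b c h : ℝ) : ℝ := max (h ^ 2) ((b + c) * h - b * c)

lemma Psi_free {b c h : ℝ} (hf : ¬ (b < h ∧ h < c)) (hbc : b ≤ c) : Psi b c h = h ^ 2 := by
  unfold Psi
  refine max_eq_left ?_
  have : 0 ≤ (h - b) * (h - c) := by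
    by_cases h1 : b < h
    · have h2 : c ≤ h := not_lt.1 fun hh => hf ⟨h1, hh⟩
      exact mul_nonneg (by linarith) (by linarith)
    · exact mul_nonneg_of_nonpos_of_nonpos (by linarith) (by linarith)
  nlinarith

lemma Psi_step (h : Chn n p m φ) {i : ℕ} (hi : i < n) (b c : ℝ) :
    ∑ y, m (i + 1) y * Psi b c (φ (i + 1) y) ≤ ∑ x, m i x * Psi b c (φ i x) := by
  have key : ∀ y, m (i + 1) y * Psi b c (φ (i + 1) y) ≤ ∑ x, p i x y * Psi b c (φ i x) := by
    intro y
    have hm := h.m0 (i + 1) (by omega) y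
    have h1 : ∑ x, p i x y * φ i x ^ 2 ≤ ∑ x, p i x y * Psi b c (φ i x) :=
      sum_le_sum fun x _ => mul_le_mul_of_nonneg_left (le_max_left _ _) (h.nonneg i hi x y)
    have h2 : ∑ x, p i x y * ((b + c) * φ i x - b * c) ≤ ∑ x, p i x y * Psi b c (φ i x) :=
      sum_le_sum fun x _ => mul_le_mul_of_nonneg_left (le_max_right _ _) (h.nonneg i hi x y)
    have h3 : ∑ x, p i x y * ((b + c) * φ i x - b * c) =
        m (i + 1) y * ((b + c) * φ (i + 1) y - b * c) := by
      have : ∀ x, p i x y * ((b + c) * φ i x - b * c) =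
          (b + c) * (p i x y * φ i x) - b * c * p i x y := fun x => by ring
      simp only [this, sum_sub_distrib, ← mul_sum]
      rw [← h.harm i hi y, h.col i hi y]
      ring
    have h4 : m (i + 1) y * φ (i + 1) y ^ 2 ≤ ∑ x, p i x y * φ i x ^ 2 := by
      have h5 : 0 ≤ ∑ x, p i x y * (φ i x - φ (i + 1) y) ^ 2 :=
        sum_nonneg fun x _ => mul_nonneg (h.nonneg i hi x y) (sq_nonneg _)
      have e : ∀ x, p i x y * (φ i x - φ (i + 1) y) ^ 2 =
          p i x y * φ i x ^ 2 - 2 * φ (i + 1) y * (p i x y * φ i x) +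
            φ (i + 1) y ^ 2 * p i x y := fun x => by ring
      simp only [e, sum_add_distrib, sum_sub_distrib, ← mul_sum] at h5
      rw [← h.harm i hi y, h.col i hi y] at h5
      nlinarith
    unfold Psi at *
    rcases le_total (φ (i + 1) y ^ 2) ((b + c) * φ (i + 1) y - b * c) with h6 | h6
    · rw [max_eq_right h6, ← h3]
      exact h2
    · rw [max_eq_left h6]
      exact h4.trans h1
  refine (sum_le_sum fun y _ => key y).trans (le_of_eq ?_)
  rw [sum_comm]
  refine sum_congr rfl fun x _ => ?_
  rw [← sum_mul, h.row i hi x]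

lemma Psi_anti (h : Chn n p m φ) {s t : ℕ} (hst : s ≤ t) (ht : t ≤ n) (b c : ℝ) :
    ∑ y, m t y * Psi b c (φ t y) ≤ ∑ x, m s x * Psi b c (φ s x) := by
  induction t, hst using Nat.le_induction with
  | base => exact le_rfl
  | succ t hst ih => exact (Psi_step h (by omega) b c).trans (ih (by omega))

open Classical in
/-- the middle half of an interval which was free at time `s` -/
lemma mid_le (h : Chn n p m φ) {s t : ℕ} (hst : s ≤ t) (ht : t ≤ n) {b ℓ : ℝ} (hℓ : 0 < ℓ)
    (hfree : ∀ x : α s, ¬ (b < φ s x ∧ φ s x < b + ℓ / 3)) :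
    ∑ y, (if b + ℓ / 12 < φ t y ∧ φ t y < b + ℓ / 4 then m t y else 0) ≤
      48 * (Vq m φ s - Vq m φ t) / ℓ ^ 2 := by
  have h1 := Psi_anti h hst ht b (b + ℓ / 3)
  have h2 : ∑ x, m s x * Psi b (b + ℓ / 3) (φ s x) = Vq m φ s := by
    unfold Vq
    exact sum_congr rfl fun x _ => by rw [Psi_free (hfree x) (by linarith)]
  have h3 : Vq m φ t + ℓ ^ 2 / 48 *
      ∑ y, (if b + ℓ / 12 < φ t y ∧ φ t y < b + ℓ / 4 then m t y else 0) ≤
      ∑ y, m t y * Psi b (b + ℓ / 3) (φ t y) := by
    unfold Vq
    rw [mul_sum, ← sum_add_distrib]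
    refine sum_le_sum fun y _ => ?_
    have hm := h.m0 t ht y
    split_ifs with h4
    · have h5 : φ t y ^ 2 + ℓ ^ 2 / 48 ≤ Psi b (b + ℓ / 3) (φ t y) := by
        refine le_trans ?_ (le_max_right _ _)
        have h6 : ℓ ^ 2 / 48 ≤ (φ t y - b) * (b + ℓ / 3 - φ t y) := by
          obtain ⟨g1, g2⟩ := h4
          have g3 : 0 ≤ (φ t y - b - ℓ / 12) * (b + ℓ / 4 - φ t y) :=
            mul_nonneg (by linarith) (by linarith)
          nlinarith
        nlinarith
      nlinarith
    · rw [mul_zero, add_zero]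
      exact mul_le_mul_of_nonneg_left (le_max_left _ _) hm
  rw [le_div_iff₀ (by positivity)]
  nlinarith

/-- the constants -/
def Cc : ℕ → ℝ
  | 0 => 1
  | j + 1 => 36 * Cc j + 36 ^ (j + 1) + 48

lemma Cc_pos (j : ℕ) : 0 < Cc j := by
  induction j with
  | zero => norm_num [Cc]
  | succ j ih => rw [Cc]; positivity

lemma sum_V (m φ : ∀ i, α i → ℝ) {s t : ℕ} (hst : s ≤ t) :
    ∑ i ∈ Ico s t, (Vq m φ i - Vq m φ (i + 1)) = Vq m φ s - Vq m φ t := by
  induction t, hst using Nat.le_induction with
  | base => simp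
  | succ t hst ih => rw [sum_Ico_succ_top hst, ih]; ring

open Classical in
/-- **labels**: an interval which contains at most `j` values and a free third is crossed seldom -/
theorem labels (h : Chn n p m φ) (j : ℕ) : ∀ (s t : ℕ), s ≤ t → t ≤ n → ∀ (a ℓ b : ℝ), 0 < ℓ →
    a ≤ b → b + ℓ / 3 ≤ a + ℓ →
    (∀ i, s ≤ i → i ≤ t →
      (univ.filter (fun x : α i => a < φ i x ∧ φ i x < a + ℓ)).card ≤ j) →
    (∀ x : α s, ¬ (b < φ s x ∧ φ s x < b + ℓ / 3)) →
    ∃ l : ∀ i, α i → Bool,
      (∀ i, s ≤ i → i ≤ t → ∀ x, (l i x = true → a + ℓ / 6 ^ j ≤ φ i x) ∧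
        (l i x = false → φ i x ≤ a + ℓ - ℓ / 6 ^ j)) ∧
      ∑ i ∈ Ico s t, Pq p i (fun x y => l i x ≠ l (i + 1) y) ≤
        Cc j * (Vq m φ s - Vq m φ t) / ℓ ^ 2 := by
  induction j with
  | zero =>
    intro s t hst ht a ℓ b hℓ _ _ hcard _
    have hfree : ∀ i, s ≤ i → i ≤ t → ∀ x : α i, φ i x < a + ℓ → φ i x ≤ a := by
      intro i h1 h2 x hx
      by_contra hcon
      have h3 := hcard i h1 h2
      have h4 := card_eq_zero.1 (Nat.le_zero.1 h3)
      have h5 : x ∈ univ.filter (fun x : α i => a < φ i x ∧ φ i x < a + ℓ) :=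
        mem_filter.2 ⟨mem_univ _, not_le.1 hcon, hx⟩
      rw [h4] at h5
      exact absurd h5 (notMem_empty _)
    refine ⟨fun i x => decide (a + ℓ ≤ φ i x), fun i h1 h2 x => ⟨fun h3 => ?_, fun h3 => ?_⟩, ?_⟩
    · simpa using h3
    · have h4 : φ i x < a + ℓ := by simpa using h3
      have h5 := hfree i h1 h2 x h4
      simp only [pow_zero, div_one]
      linarith
    · have h1 : ∀ i ∈ Ico s t, Pq p i (fun x y => decide (a + ℓ ≤ φ i x) ≠
          decide (a + ℓ ≤ φ (i + 1) y)) ≤ (Vq m φ i - Vq m φ (i + 1)) / ℓ ^ 2 := by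
        intro i hi
        rw [mem_Ico] at hi
        refine le_trans ?_ (jump_le h (by omega) hℓ)
        unfold Pq
        refine sum_le_sum fun x _ => sum_le_sum fun y _ => ?_
        have h0 := h.nonneg i (by omega) x y
        by_cases h3 : decide (a + ℓ ≤ φ i x) ≠ decide (a + ℓ ≤ φ (i + 1) y)
        · rw [if_pos h3, if_pos]
          by_cases h4 : a + ℓ ≤ φ i x
          · by_cases h5 : a + ℓ ≤ φ (i + 1) y
            · exact absurd (by simp [h4, h5]) h3
            · have := hfree (i + 1) (by omega) (by omega) y (not_le.1 h5)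
              refine le_trans ?_ (le_abs_self _)
              linarith
          · by_cases h5 : a + ℓ ≤ φ (i + 1) y
            · have := hfree i (by omega) (by omega) x (not_le.1 h4)
              refine le_trans ?_ (neg_le_abs _)
              linarith
            · exact absurd (by simp [h4, h5]) h3
        · rw [if_neg h3]
          split_ifs <;> linarith
      refine (sum_le_sum h1).trans (le_of_eq ?_)
      rw [← sum_div, sum_V m φ hst, Cc, one_mul]
  | succ j ih =>
    intro s t hst ht a ℓ b hℓ hab hbl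
    obtain ⟨k, hk⟩ : ∃ k, k = t - s := ⟨_, rfl⟩
    induction k using Nat.strong_induction_on generalizing s b with
    | _ k IH =>
    intro hcard hfree
    have h6 : (0 : ℝ) < 6 ^ j := by positivity
    have hl6 : ℓ / 6 / 6 ^ j = ℓ / 6 ^ (j + 1) := by rw [pow_succ]; field_simp
    have hlj : ℓ / 6 ^ (j + 1) ≤ ℓ / 6 := by
      rw [← hl6]
      exact div_le_self (by positivity) (one_le_pow₀ (by norm_num))
    have hlj0 : 0 < ℓ / 6 ^ (j + 1) := by positivity
    -- the inner interval
    have inner : ∀ t', s ≤ t' → t' ≤ t → (∀ i, s ≤ i → i ≤ t' → (univ.filter (fun x : α i =>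
        b + ℓ / 12 < φ i x ∧ φ i x < b + ℓ / 12 + ℓ / 6)).card ≤ j) →
        ∃ l : ∀ i, α i → Bool,
          (∀ i, s ≤ i → i ≤ t' → ∀ x, (l i x = true → b + ℓ / 12 + ℓ / 6 ^ (j + 1) ≤ φ i x) ∧
            (l i x = false → φ i x ≤ b + ℓ / 4 - ℓ / 6 ^ (j + 1))) ∧
          ∑ i ∈ Ico s t', Pq p i (fun x y => l i x ≠ l (i + 1) y) ≤
            36 * Cc j * (Vq m φ s - Vq m φ t') / ℓ ^ 2 := by
      intro t' h1 h2 h3
      obtain ⟨l, hl1, hl2⟩ := ih s t' h1 (h2.trans ht) (b + ℓ / 12) (ℓ / 6) (b + ℓ / 12)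
        (by positivity) le_rfl (by linarith) h3 (by
          rintro x ⟨g1, g2⟩
          exact hfree x ⟨by linarith, by linarith⟩)
      refine ⟨l, fun i g1 g2 x => ⟨fun g3 => ?_, fun g3 => ?_⟩, ?_⟩
      · have := (hl1 i g1 g2 x).1 g3
        rwa [hl6] at this
      · have := (hl1 i g1 g2 x).2 g3
        rw [hl6] at this
        linarith
      · refine hl2.trans (le_of_eq ?_)
        field_simp
        ring
    have hCj := Cc_pos j
    have hVst := V_anti h hst ht
    by_cases hA : ∀ i, s ≤ i → i ≤ t → (univ.filter (fun x : α i =>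
        b + ℓ / 12 < φ i x ∧ φ i x < b + ℓ / 12 + ℓ / 6)).card ≤ j
    · obtain ⟨l, hl1, hl2⟩ := inner t hst le_rfl hA
      refine ⟨l, fun i g1 g2 x => ⟨fun g3 => ?_, fun g3 => ?_⟩, hl2.trans ?_⟩
      · have := (hl1 i g1 g2 x).1 g3
        linarith
      · have := (hl1 i g1 g2 x).2 g3
        linarith
      · refine div_le_div_of_nonneg_right (mul_le_mul_of_nonneg_right ?_ (by linarith))
          (by positivity)
        rw [Cc]
        have : (0 : ℝ) < 36 ^ (j + 1) := by positivity
        linarith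
    · push Not at hA
      have hex : ∃ i, s ≤ i ∧ i ≤ t ∧ j < (univ.filter (fun x : α i =>
        b + ℓ / 12 < φ i x ∧ φ i x < b + ℓ / 12 + ℓ / 6)).card := hA
      obtain ⟨r, ⟨hr1, hr2, hr3⟩, hmin⟩ : ∃ r, (s ≤ r ∧ r ≤ t ∧ j < (univ.filter (fun x : α r =>
          b + ℓ / 12 < φ r x ∧ φ r x < b + ℓ / 12 + ℓ / 6)).card) ∧
          ∀ i, s ≤ i → i < r → (univ.filter (fun x : α i =>
            b + ℓ / 12 < φ i x ∧ φ i x < b + ℓ / 12 + ℓ / 6)).card ≤ j := by
        refine ⟨Nat.find hex, Nat.find_spec hex, fun i h1 h2 => ?_⟩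
        have h3 := Nat.find_min hex h2
        have h4 := (Nat.find_spec hex).2.1
        by_contra hcon
        exact h3 ⟨h1, by omega, not_le.1 hcon⟩
      have hrs : s ≠ r := by
        rintro rfl
        have h1 : (univ.filter (fun x : α s =>
          b + ℓ / 12 < φ s x ∧ φ s x < b + ℓ / 12 + ℓ / 6)) = ∅ := by
          rw [filter_eq_empty_iff]
          rintro x _ ⟨g1, g2⟩
          exact hfree x ⟨by linarith, by linarith⟩
        rw [h1, card_empty] at hr3
        omega
      obtain ⟨r', rfl⟩ : ∃ r', r = r' + 1 := ⟨r - 1, by omega⟩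
      have hsr : s ≤ r' := by omega
      obtain ⟨l1, hl1, hs1⟩ := inner r' hsr (by omega) fun i h1 h2 => hmin i h1 (by omega)
      -- all values of the big interval are in the small one
      have hall : ∀ x : α (r' + 1), a < φ (r' + 1) x → φ (r' + 1) x < a + ℓ →
          b + ℓ / 12 < φ (r' + 1) x ∧ φ (r' + 1) x < b + ℓ / 4 := by
        have hsub : (univ.filter (fun x : α (r' + 1) =>
            b + ℓ / 12 < φ (r' + 1) x ∧ φ (r' + 1) x < b + ℓ / 12 + ℓ / 6)) ⊆
            univ.filter (fun x : α (r' + 1) => a < φ (r' + 1) x ∧ φ (r' + 1) x < a + ℓ) := by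
          intro x hx
          rw [mem_filter] at hx ⊢
          exact ⟨mem_univ _, by linarith [hx.2.1], by linarith [hx.2.2]⟩
        have heq := eq_of_subset_of_card_le hsub (by
          have := hcard (r' + 1) (by omega) hr2
          omega)
        intro x g1 g2
        have hx : x ∈ univ.filter (fun x : α (r' + 1) => a < φ (r' + 1) x ∧
          φ (r' + 1) x < a + ℓ) := mem_filter.2 ⟨mem_univ _, g1, g2⟩
        rw [← heq, mem_filter] at hx
        exact ⟨hx.2.1, by linarith [hx.2.2]⟩
      -- the new free third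
      obtain ⟨b', hb1, hb2, hb3⟩ : ∃ b' : ℝ, a ≤ b' ∧ b' + ℓ / 3 ≤ a + ℓ ∧
          ∀ x : α (r' + 1), ¬ (b' < φ (r' + 1) x ∧ φ (r' + 1) x < b' + ℓ / 3) := by
        by_cases hc : a + ℓ / 3 ≤ b + ℓ / 12
        · refine ⟨a, le_rfl, by linarith, ?_⟩
          rintro x ⟨g1, g2⟩
          have := hall x g1 (by linarith)
          linarith [this.1]
        · refine ⟨a + ℓ - ℓ / 3, by linarith, by linarith, ?_⟩
          rintro x ⟨g1, g2⟩
          have := hall x (by linarith) (by linarith)
          linarith [this.2]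
      obtain ⟨l2, hl2, hs2⟩ := IH (t - (r' + 1)) (by omega) (r' + 1) hr2 b' hb1 hb2 rfl
        (fun i h1 h2 => hcard i (by omega) h2) hb3
      refine ⟨fun i => if i ≤ r' then l1 i else l2 i, fun i h1 h2 x => ?_, ?_⟩
      · by_cases hi : i ≤ r'
        · simp only [if_pos hi]
          obtain ⟨g1, g2⟩ := hl1 i h1 hi x
          exact ⟨fun g => by linarith [g1 g], fun g => by linarith [g2 g]⟩
        · simp only [if_neg hi]
          exact hl2 i (by omega) h2 x
      · -- the sum
        have e1 : ∑ i ∈ Ico s t, Pq p i (fun x y => (if i ≤ r' then l1 i else l2 i) x ≠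
            (if i + 1 ≤ r' then l1 (i + 1) else l2 (i + 1)) y) =
            ∑ i ∈ Ico s r', Pq p i (fun x y => l1 i x ≠ l1 (i + 1) y) +
            Pq p r' (fun x y => l1 r' x ≠ l2 (r' + 1) y) +
            ∑ i ∈ Ico (r' + 1) t, Pq p i (fun x y => l2 i x ≠ l2 (i + 1) y) := by
          rw [← sum_Ico_consecutive _ (show s ≤ r' + 1 by omega) hr2, sum_Ico_succ_top hsr]
          congr 1
          · congr 1
            · refine sum_congr rfl fun i hi => ?_
              rw [mem_Ico] at hi
              rw [if_pos (by omega), if_pos (by omega)]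
            · rw [if_pos le_rfl, if_neg (by omega)]
          · refine sum_congr rfl fun i hi => ?_
            rw [mem_Ico] at hi
            rw [if_neg (by omega), if_neg (by omega)]
        -- the transition
        have e2 : Pq p r' (fun x y => l1 r' x ≠ l2 (r' + 1) y) ≤
            36 ^ (j + 1) * (Vq m φ r' - Vq m φ (r' + 1)) / ℓ ^ 2 +
              48 * (Vq m φ s - Vq m φ (r' + 1)) / ℓ ^ 2 := by
          refine (Pq_or h (by omega) (Q₁ := fun x y => ℓ / 6 ^ (j + 1) ≤
            |φ r' x - φ (r' + 1) y|) (Q₂ := fun _ y => b + ℓ / 12 < φ (r' + 1) y ∧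
              φ (r' + 1) y < b + ℓ / 4) ?_).trans (add_le_add ?_ ?_)
          · intro x y hne
            by_cases hin : b + ℓ / 12 < φ (r' + 1) y ∧ φ (r' + 1) y < b + ℓ / 4
            · exact Or.inr hin
            · left
              have hout : φ (r' + 1) y ≤ a ∨ a + ℓ ≤ φ (r' + 1) y := by
                by_contra hcon
                push Not at hcon
                exact hin (hall y hcon.1 hcon.2)
              obtain ⟨g1, g2⟩ := hl1 r' hsr le_rfl x
              obtain ⟨g3, g4⟩ := hl2 (r' + 1) le_rfl hr2 y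
              rcases Bool.eq_false_or_eq_true (l1 r' x) with c1 | c1
              · have c2 : l2 (r' + 1) y = false := by
                  rcases Bool.eq_false_or_eq_true (l2 (r' + 1) y) with c2 | c2
                  · exact absurd (c1.trans c2.symm) hne
                  · exact c2
                have d1 := g1 c1
                have d2 := g4 c2
                have d3 : φ (r' + 1) y ≤ a := hout.resolve_right (by linarith)
                refine le_trans ?_ (le_abs_self _)
                linarith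
              · have c2 : l2 (r' + 1) y = true := by
                  rcases Bool.eq_false_or_eq_true (l2 (r' + 1) y) with c2 | c2
                  · exact c2
                  · exact absurd (c1.trans c2.symm) hne
                have d1 := g2 c1
                have d2 := g3 c2
                have d3 : a + ℓ ≤ φ (r' + 1) y := hout.resolve_left (by linarith)
                refine le_trans ?_ (neg_le_abs _)
                linarith
          · refine (jump_le h (by omega) hlj0).trans (le_of_eq ?_)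
            have : (6 ^ (j + 1) : ℝ) ^ 2 = 36 ^ (j + 1) := by
              rw [← pow_mul, mul_comm, pow_mul]; norm_num
            rw [div_pow, this]
            field_simp
          · refine le_trans (le_of_eq ?_) (mid_le h (show s ≤ r' + 1 by omega) (by omega) hℓ hfree)
            unfold Pq
            rw [sum_comm]
            refine sum_congr rfl fun y _ => ?_
            split_ifs with hy
            · exact h.col r' (by omega) y
            · exact sum_const_zero
        have v1 := V_anti h hsr (show r' ≤ n by omega)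
        have v2 := V_step h (show r' < n by omega)
        have v3 := V_anti h hr2 ht
        have hC1 := Cc_pos (j + 1)
        have c36 : (0 : ℝ) < 36 ^ (j + 1) := by positivity
        beta_reduce
        rw [e1]
        refine (add_le_add (add_le_add hs1 e2) hs2).trans ?_
        rw [← add_div, ← add_div, ← add_div]
        refine div_le_div_of_nonneg_right ?_ (by positivity)
        have q1 : 36 * Cc j * (Vq m φ s - Vq m φ r') ≤ 36 * Cc j * (Vq m φ s - Vq m φ (r' + 1)) :=
          mul_le_mul_of_nonneg_left (by linarith) (by positivity)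
        have q2 : 36 ^ (j + 1) * (Vq m φ r' - Vq m φ (r' + 1)) ≤
            36 ^ (j + 1) * (Vq m φ s - Vq m φ (r' + 1)) :=
          mul_le_mul_of_nonneg_left (by linarith) (by positivity)
        have q3 : Cc (j + 1) = 36 * Cc j + 36 ^ (j + 1) + 48 := rfl
        have q4 : Cc (j + 1) * (Vq m φ s - Vq m φ t) = Cc (j + 1) * (Vq m φ s - Vq m φ (r' + 1)) +
          Cc (j + 1) * (Vq m φ (r' + 1) - Vq m φ t) := by ring
        rw [q4]
        have q5 : Cc (j + 1) * (Vq m φ s - Vq m φ (r' + 1)) =
            36 * Cc j * (Vq m φ s - Vq m φ (r' + 1)) +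
            36 ^ (j + 1) * (Vq m φ s - Vq m φ (r' + 1)) + 48 * (Vq m φ s - Vq m φ (r' + 1)) := by
          rw [q3]; ring
        linarith

/-- the constant of the comparison theorem -/
def CN (N : ℕ) : ℝ := Cc N + 6 ^ N

lemma CN_pos (N : ℕ) : 0 < CN N := add_pos (Cc_pos N) (by positivity)

open Classical in
/-- expectation of an event of a consecutive pair -/
lemma Pq_eq {Ω : Type*} [Fintype Ω] (P : Ω → ℝ) (S : ∀ i, Ω → α i) {i : ℕ}
    (hp : ∀ x y, ∑ ω, (if S i ω = x ∧ S (i + 1) ω = y then P ω else 0) = p i x y)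
    (Q : α i → α (i + 1) → Prop) :
    ∑ ω, (if Q (S i ω) (S (i + 1) ω) then P ω else 0) = Pq p i Q := by
  unfold Pq
  have e1 : ∀ x y, (if Q x y then p i x y else 0) =
      ∑ ω, (if S i ω = x ∧ S (i + 1) ω = y then (if Q x y then P ω else 0) else 0) := by
    intro x y
    rw [← hp x y]
    split_ifs with h
    · rfl
    · symm
      refine sum_eq_zero fun ω _ => ?_
      split_ifs <;> rfl
  simp only [e1]
  symm
  calc ∑ x, ∑ y, ∑ ω, (if S i ω = x ∧ S (i + 1) ω = y then (if Q x y then P ω else 0) else 0)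
      = ∑ ω, ∑ x, ∑ y,
        (if S i ω = x ∧ S (i + 1) ω = y then (if Q x y then P ω else 0) else 0) := by
        rw [sum_congr rfl fun x _ => sum_comm, sum_comm]
    _ = ∑ ω, (if Q (S i ω) (S (i + 1) ω) then P ω else 0) := by
        refine sum_congr rfl fun ω _ => ?_
        rw [sum_eq_single (S i ω), sum_eq_single (S (i + 1) ω)]
        · rw [if_pos ⟨rfl, rfl⟩]
        · intro y _ hy
          rw [if_neg fun hh => hy hh.2.symm]
        · intro hh
          exact absurd (mem_univ _) hh
        · intro x _ hx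
          exact sum_eq_zero fun y _ => if_neg fun hh => hx hh.1.symm
        · intro hh
          exact absurd (mem_univ _) hh

lemma chain_ne (b : ℕ → Bool) (c : Bool) (n : ℕ) :
    (if b 0 ≠ c then (1 : ℝ) else 0) ≤
      ∑ i ∈ range n, (if b i ≠ b (i + 1) then (1 : ℝ) else 0) + (if b n ≠ c then 1 else 0) := by
  induction n with
  | zero => simp
  | succ n ih =>
    rw [sum_range_succ]
    have : (if b n ≠ c then (1 : ℝ) else 0) ≤
        (if b n ≠ b (n + 1) then (1 : ℝ) else 0) + (if b (n + 1) ≠ c then 1 else 0) := by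
      by_cases h1 : b n = b (n + 1)
      · rw [h1]
        simp
      · rw [if_pos h1]
        split_ifs <;> norm_num
    linarith

open Classical in
/-- **comparison theorem**: `CC` = `(Ω, P, S)` is any law with the pair laws `p i`; the backward
harmonic function `φ` of the `0/1` valued function `φ 0` predicts `h` with error `ε`; then `φ 0`
and `h` differ with probability at most `CN N * ε` under `CC` -/
theorem comparison (h : Chn n p m φ) {N : ℕ} (hN : ∀ i, i ≤ n → Fintype.card (α i) ≤ N)
    (hφ0 : ∀ x, φ 0 x = 0 ∨ φ 0 x = 1) (hφn : ∀ x, 0 ≤ φ n x ∧ φ n x ≤ 1)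
    {Ω : Type*} [Fintype Ω] (P : Ω → ℝ) (hP : ∀ ω, 0 ≤ P ω) (S : ∀ i, Ω → α i)
    (hp : ∀ i, i < n → ∀ x y, ∑ ω, (if S i ω = x ∧ S (i + 1) ω = y then P ω else 0) = p i x y)
    (hm : ∀ x, ∑ ω, (if S n ω = x then P ω else 0) = m n x)
    (f : α 0 → Bool) (hf : ∀ x, φ 0 x = if f x then 1 else 0) (g : α n → Bool) :
    ∑ ω, (if f (S 0 ω) ≠ g (S n ω) then P ω else 0) ≤
      CN N * ∑ x, m n x * (if g x then 1 - φ n x else φ n x) := by
  obtain ⟨l, hl, hs⟩ := labels h N 0 n (Nat.zero_le _) le_rfl 0 1 0 one_pos le_rfl (by norm_num)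
    (fun i _ hi => (card_filter_le _ _).trans (by rw [card_univ]; exact hN i hi)) (by
      rintro x ⟨g1, g2⟩
      rcases hφ0 x with h0 | h0
      · rw [h0] at g1
        exact lt_irrefl _ g1
      · rw [h0] at g2
        norm_num at g2)
  have h6 : (0 : ℝ) < 1 / 6 ^ N := by positivity
  have hl0 : ∀ x, l 0 x = f x := by
    intro x
    obtain ⟨g1, g2⟩ := hl 0 le_rfl (Nat.zero_le _) x
    rcases Bool.eq_false_or_eq_true (l 0 x) with c | c
    · have := g1 c
      rcases Bool.eq_false_or_eq_true (f x) with c' | c'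
      · rw [c, c']
      · have h0 := hf x
        rw [c'] at h0
        simp only [Bool.false_eq_true, if_false] at h0
        rw [h0] at this
        linarith
    · have := g2 c
      rcases Bool.eq_false_or_eq_true (f x) with c' | c'
      · have h0 := hf x
        rw [c'] at h0
        simp only [if_true] at h0
        rw [h0] at this
        linarith
      · rw [c, c']
  set ε : ℝ := ∑ x, m n x * (if g x then 1 - φ n x else φ n x) with hε
  -- energy
  have hV : Vq m φ 0 - Vq m φ n ≤ ε := by
    have e1 : Vq m φ 0 = ∑ x, m n x * φ n x := by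
      rw [mean_eq0 h le_rfl]
      unfold Vq
      refine sum_congr rfl fun x _ => ?_
      rcases hφ0 x with h0 | h0 <;> rw [h0] <;> norm_num
    rw [e1, hε]
    unfold Vq
    rw [← sum_sub_distrib]
    refine sum_le_sum fun x _ => ?_
    rw [← mul_sub]
    refine mul_le_mul_of_nonneg_left ?_ (h.m0 n le_rfl x)
    obtain ⟨h1, h2⟩ := hφn x
    split_ifs <;> nlinarith
  -- the last label
  have hlast : ∑ ω, (if l n (S n ω) ≠ g (S n ω) then P ω else 0) ≤ 6 ^ N * ε := by
    have e1 : ∑ ω, (if l n (S n ω) ≠ g (S n ω) then P ω else 0) =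
        ∑ x, (if l n x ≠ g x then m n x else 0) := by
      have e2 : ∀ x, (if l n x ≠ g x then m n x else 0) =
          ∑ ω, (if S n ω = x then (if l n x ≠ g x then P ω else 0) else 0) := by
        intro x
        rw [← hm x]
        by_cases hx : l n x ≠ g x
        · simp only [if_pos hx]
        · simp only [if_neg hx, ite_self, sum_const_zero]
      rw [sum_congr rfl fun x _ => e2 x, sum_comm]
      refine sum_congr rfl fun ω _ => ?_
      rw [sum_eq_single (S n ω)]
      · rw [if_pos rfl]
      · intro x _ hx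
        rw [if_neg fun hh => hx hh.symm]
      · intro hh
        exact absurd (mem_univ _) hh
    rw [e1, hε, mul_sum]
    refine sum_le_sum fun x _ => ?_
    have hm0 := h.m0 n le_rfl x
    obtain ⟨p1, p2⟩ := hφn x
    obtain ⟨g1, g2⟩ := hl n (Nat.zero_le _) le_rfl x
    have h6' : (6 : ℝ) ^ N * (1 / 6 ^ N) = 1 := by field_simp
    by_cases hne : l n x ≠ g x
    · rw [if_pos hne]
      have key : 1 / 6 ^ N ≤ (if g x = true then 1 - φ n x else φ n x) := by
        rcases Bool.eq_false_or_eq_true (l n x) with c | c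
        · have c' : g x = false := by
            rcases Bool.eq_false_or_eq_true (g x) with c' | c'
            · exact absurd (c.trans c'.symm) hne
            · exact c'
          rw [c']
          simp only [Bool.false_eq_true, if_false]
          have := g1 c
          linarith
        · have c' : g x = true := by
            rcases Bool.eq_false_or_eq_true (g x) with c' | c'
            · exact c'
            · exact absurd (c.trans c'.symm) hne
          rw [c']
          simp only [if_true]
          have := g2 c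
          linarith
      calc m n x = m n x * (6 ^ N * (1 / 6 ^ N)) := by rw [h6', mul_one]
        _ ≤ m n x * (6 ^ N * (if g x = true then 1 - φ n x else φ n x)) :=
            mul_le_mul_of_nonneg_left (mul_le_mul_of_nonneg_left key (by positivity)) hm0
        _ = 6 ^ N * (m n x * (if g x = true then 1 - φ n x else φ n x)) := by ring
    · rw [if_neg hne]
      refine mul_nonneg (by positivity) (mul_nonneg hm0 ?_)
      split_ifs <;> linarith
  -- the chain
  have hchain : ∑ ω, (if f (S 0 ω) ≠ g (S n ω) then P ω else 0) ≤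
      ∑ i ∈ range n, Pq p i (fun x y => l i x ≠ l (i + 1) y) +
        ∑ ω, (if l n (S n ω) ≠ g (S n ω) then P ω else 0) := by
    have e1 : ∀ i ∈ range n, Pq p i (fun x y => l i x ≠ l (i + 1) y) =
        ∑ ω, (if l i (S i ω) ≠ l (i + 1) (S (i + 1) ω) then P ω else 0) := by
      intro i hi
      rw [← Pq_eq P S (hp i (mem_range.1 hi)) (fun x y => l i x ≠ l (i + 1) y)]
      refine sum_congr rfl fun ω _ => ?_
      congr
    rw [sum_congr rfl e1, sum_comm, ← sum_add_distrib]
    refine sum_le_sum fun ω _ => ?_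
    have h1 := chain_ne (fun i => l i (S i ω)) (g (S n ω)) n
    have h2 := mul_le_mul_of_nonneg_left h1 (hP ω)
    rw [mul_add, mul_sum] at h2
    simp only [mul_ite, mul_one, mul_zero] at h2
    rw [hl0] at h2
    exact h2
  refine hchain.trans ?_
  have hs' : ∑ i ∈ range n, Pq p i (fun x y => l i x ≠ l (i + 1) y) ≤ Cc N * ε := by
    rw [range_eq_Ico]
    refine hs.trans ?_
    rw [one_pow, div_one]
    exact mul_le_mul_of_nonneg_left hV (Cc_pos N).le
  unfold CN
  rw [add_mul]
  exact add_le_add hs' hlast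

end Vale.Agent.P235.H279
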